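import Vale.Agent.Snaky.P1.Tbl


namespace Vale.Agent.Snaky.P1

theorem ck768 : checkRange tbl 10727 21 = 0 := by decide +kernel
theorem ck769 : checkRange tbl 10748 19 = 0 := by decide +kernel
theorem ck770 : checkRange tbl 10767 15 = 0 := by decide +kernel
theorem ck771 : checkRange tbl 10782 19 = 0 := by decide +kernel
theorem ck772 : checkRange tbl 10801 18 = 0 := by decide +kernel
theorem ck773 : checkRange tbl 10819 15 = 0 := by decide +kernel
theorem ck774 : checkRange tbl 10834 17 = 0 := by decide +kernel
theorem ck775 : checkRange tbl 10851 18 = 0 := by decide +kernel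
theorem ck776 : checkRange tbl 10869 15 = 0 := by decide +kernel
theorem ck777 : checkRange tbl 10884 13 = 0 := by decide +kernel
theorem ck778 : checkRange tbl 10897 17 = 0 := by decide +kernel
theorem ck779 : checkRange tbl 10914 16 = 0 := by decide +kernel
theorem ck780 : checkRange tbl 10930 14 = 0 := by decide +kernel
theorem ck781 : checkRange tbl 10944 3 = 0 := by decide +kernel
theorem ck782 : checkRange tbl 10947 2 = 0 := by decide +kernel

theorem rng12 : RangeOK tbl 10727 222 := RangeOK.join (RangeOK.join (RangeOK.join (RangeOK.of_check ck768) (RangeOK.join (RangeOK.of_check ck769) (RangeOK.of_check ck770) (Eq.refl 10767)) (Eq.refl 10748)) (RangeOK.join (RangeOK.join (RangeOK.of_check ck771) (RangeOK.of_check ck772) (Eq.refl 10801)) (RangeOK.join (RangeOK.of_check ck773) (RangeOK.of_check ck774) (Eq.refl 10834)) (Eq.refl 10819)) (Eq.refl 10782)) (RangeOK.join (RangeOK.join (RangeOK.join (RangeOK.of_check ck775) (RangeOK.of_check ck776) (Eq.refl 10869)) (RangeOK.join (RangeOK.of_check ck777) (RangeOK.of_check ck778) (Eq.refl 10897)) (Eq.refl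 10884)) (RangeOK.join (RangeOK.join (RangeOK.of_check ck779) (RangeOK.of_check ck780) (Eq.refl 10930)) (RangeOK.join (RangeOK.of_check ck781) (RangeOK.of_check ck782) (Eq.refl 10947)) (Eq.refl 10944)) (Eq.refl 10914)) (Eq.refl 10851)

end Vale.Agent.Snaky.P1
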