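import Vale.Agent.Snaky.Cert
import Vale.Agent.Snaky.P1.C0
import Vale.Agent.Snaky.P1.C1
import Vale.Agent.Snaky.P1.C2
import Vale.Agent.Snaky.P1.C3
import Vale.Agent.Snaky.P1.C4
import Vale.Agent.Snaky.P1.C5
import Vale.Agent.Snaky.P1.C6
import Vale.Agent.Snaky.P1.C7
import Vale.Agent.Snaky.P1.C8
import Vale.Agent.Snaky.P1.C9
import Vale.Agent.Snaky.P1.C10
import Vale.Agent.Snaky.P1.C11
import Vale.Agent.Snaky.P1.C12


namespace Vale.Agent.Snaky.P1

theorem allOK : RangeOK tbl 0 10949 := RangeOK.join (RangeOK.join (RangeOK.join (rng0) (RangeOK.join (rng1) (rng2) (Eq.refl 1845)) (Eq.refl 952)) (RangeOK.join (rng3) (RangeOK.join (rng4) (rng5) (Eq.refl 4233)) (Eq.refl 3363)) (Eq.refl 2608)) (RangeOK.join (RangeOK.join (rng6) (RangeOK.join (rng7) (rng8) (Eq.refl 6832)) (Eq.refl 5966)) (RangeOK.join (RangeOK.join (rng9) (rng10) (Eq.refl 8523)) (RangeOK.join (rng11) (rng12) (Eq.refl 10727)) (Eq.refl 9490)) (Eq.refl 7718)) (Eq.refl 5184)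

theorem allSem : ∀ j < 10949, (tbl j).Sem :=
  sem_all (fun i hi => allOK i (Nat.zero_le _) (by omega))

/-- The depth of the statement. -/
def rD : ℕ := 13
/-- The Maker stone. -/
def rM : ℕ := Nat.shiftLeft 1 455
/-- The zone of the root. -/
def rU : ℕ := 262034087443289962248954786080933358007073936628468844916193233708105781370436826664233465470250030752653915689093157463982638813201232718100235985436944017187824156293968336605268713925500882315370308300786401273078966959160651384403062359930562777467679345753751180806080
/-- The references of the root. -/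
def rSt : ℕ := 4258026071759274868285493918524304219730307180930548495272111441416276772552578564603824600488451467954977553507512390434451606151573398854456898699894803168148347145967295803677126143065127294023924548713464936432384459426282150074958365334383461384086550727557711224258990945308511270850432772729296255442446018186814825286907611810118239573941510915140877622263300722340716237599468483940449336378980465172870213355175234311190597962363738200541308694775926309222891527508651118730119343436237489361962029259046505417380107690885488567189895893587690893287564816813361365404578349058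
/-- The Breaker replies that stay open. -/
def rH : ℕ := 110804019859950831272405674883304997459144265853354507993433482583807670319489133310079015429964602359499954130008721148734779742945371932723710654464908677630166371525107646464

theorem rootChk : k2Loop tbl 10949 rD rM 0 rU 61 rSt (Nat.xor rU (Nat.land rU (Nat.lor rM rH))) = 0 := by
  decide +kernel

theorem rH_spec : ∀ c, c < 2048 → rH.testBit c = true →
    ((((c % 64 : ℕ) : ℤ) - 7).natAbs ≤ 2 ∧ (((c / 64 : ℕ) : ℤ) - 7).natAbs ≤ 2 ∧
      ((((c % 64 : ℕ) : ℤ) - 7).natAbs + (((c / 64 : ℕ) : ℤ) - 7).natAbs ≤ 3)) := by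
  decide +kernel

theorem rU_spec : ∀ c, rU.testBit c = true → c < 2048 := by
  have h : Nat.shiftRight rU 2048 = 0 := by decide +kernel
  intro c hc
  by_contra hge
  have h5 : (Nat.shiftRight rU 2048).testBit (c - 2048) = true := by
    rw [testBit_shiftRight']
    have : c - 2048 + 2048 = c := by omega
    rwa [this]
  rw [h] at h5
  simp at h5

/-- The statement in the frame of the certificate. -/
theorem frameWin (b : Cell) (hb : ¬ ((b.1 - 7).natAbs ≤ 2 ∧ (b.2 - 7).natAbs ≤ 2 ∧
    (b.1 - 7).natAbs + (b.2 - 7).natAbs ≤ 3)) : MakerWinsWithin rD {((7 : ℤ), (7 : ℤ))} {b} := by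
  have hcs : dec 455 = ((7 : ℤ), (7 : ℤ)) := by decide
  refine root_partial allSem (by decide) rootChk _ ?_ b ?_ ?_
  · intro c hc
    have : 455 = c := by
      have h1 : rM.testBit c = (Nat.shiftLeft 1 455).testBit c := rfl
      rw [h1, testBit_pow2] at hc
      simpa using hc
    rw [← this, hcs]
    exact Finset.mem_singleton_self _
  · intro c hc hcb
    have : 455 = c := by
      have h1 : rM.testBit c = (Nat.shiftLeft 1 455).testBit c := rfl
      rw [h1, testBit_pow2] at hc
      simpa using hc
    rw [← this, hcs] at hcb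
    apply hb
    rw [← hcb]
    simp
  · intro c hc hH hcb
    apply hb
    have h1 := rH_spec c (rU_spec c hc) hH
    rw [← hcb]
    exact h1

/-- The statement with the first Maker stone at the origin. -/
theorem win (b : Cell) (hb : ¬ (b.1.natAbs ≤ 2 ∧ b.2.natAbs ≤ 2 ∧ b.1.natAbs + b.2.natAbs ≤ 3)) :
    MakerWinsWithin 13 {((0 : ℤ), (0 : ℤ))} {b} := by
  let g : Iso := ⟨false, 1, 1, ((-7 : ℤ), (-7 : ℤ)), Or.inl rfl, Or.inl rfl⟩
  have h1 := frameWin (b.1 + 7, b.2 + 7) (by simpa using hb)
  have h2 := MakerWinsWithin.image g _ _ _ h1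
  simp only [Finset.image_singleton] at h2
  have h3 : g.f ((7 : ℤ), (7 : ℤ)) = ((0 : ℤ), (0 : ℤ)) := by
    simp [g, Iso.f, place]
  have h4 : g.f (b.1 + 7, b.2 + 7) = b := by
    simp [g, Iso.f, place]
  rw [h3, h4] at h2
  exact h2

end Vale.Agent.Snaky.P1
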