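import Vale.Agent.Snaky.P1.D0
import Vale.Agent.Snaky.P1.D1

namespace Vale.Agent.Snaky.P1

noncomputable def top : T2 := T2.node (T2.node (T2.node (T2.node (T2.node (T2.node (T2.leaf b0) (T2.leaf b32)) (T2.node (T2.leaf b16) (T2.leaf b42))) (T2.node (T2.node (T2.leaf b8) (T2.leaf b40)) (T2.node (T2.leaf b24) (T2.leaf b42)))) (T2.node (T2.node (T2.node (T2.leaf b4) (T2.leaf b36)) (T2.node (T2.leaf b20) (T2.leaf b42))) (T2.node (T2.node (T2.leaf b12) (T2.leaf b42)) (T2.node (T2.leaf b28) (T2.leaf b42))))) (T2.node (T2.node (T2.node (T2.node (T2.leaf b2) (T2.leaf b34)) (T2.node (T2.leaf b18) (T2.leaf b42))) (T2.node (T2.node (T2.leaf b10) (T2.leaf b42)) (T2.node (T2.leaf b26) (T2.leaf b42)))) (T2.node (T2.node (T2.node (T2.leaf b6) (T2.leaf b38)) (T2.node (T2.leaf b22) (T2.leaf b42))) (T2.node (T2.node (T2.leaf b14) (T2.leaf b42)) (T2.node (T2.leaf b30) (T2.leaf b42)))))) (T2.node (T2.node (T2.node (T2.node (T2.node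 (T2.leaf b1) (T2.leaf b33)) (T2.node (T2.leaf b17) (T2.leaf b42))) (T2.node (T2.node (T2.leaf b9) (T2.leaf b41)) (T2.node (T2.leaf b25) (T2.leaf b42)))) (T2.node (T2.node (T2.node (T2.leaf b5) (T2.leaf b37)) (T2.node (T2.leaf b21) (T2.leaf b42))) (T2.node (T2.node (T2.leaf b13) (T2.leaf b42)) (T2.node (T2.leaf b29) (T2.leaf b42))))) (T2.node (T2.node (T2.node (T2.node (T2.leaf b3) (T2.leaf b35)) (T2.node (T2.leaf b19) (T2.leaf b42))) (T2.node (T2.node (T2.leaf b11) (T2.leaf b42)) (T2.node (T2.leaf b27) (T2.leaf b42)))) (T2.node (T2.node (T2.node (T2.leaf b7) (T2.leaf b39)) (T2.node (T2.leaf b23) (T2.leaf b42))) (T2.node (T2.node (T2.leaf b15) (T2.leaf b42)) (T2.node (T2.leaf b31) (T2.leaf b42))))))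

noncomputable def tbl (i : Nat) : Ent := T.get (T2.get top (Nat.shiftRight i 8)) (Nat.land i 255)

end Vale.Agent.Snaky.P1
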